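import Vale.Agent.P004E.H147.PV0

/-!
# Polya-Vinogradov for the Jacobi symbol in arithmetic progressions, with a sieve
-/

set_option linter.all false

open Finset

namespace P004E.H147

/-! ### the Jacobi symbol as a Dirichlet character -/

theorem jac_congr {a b : ℤ} {k : ℕ} (h : a ≡ b [ZMOD k]) : jacobiSym a k = jacobiSym b k :=
  jacobiSym.mod_left' h

/-- the Jacobi symbol as a Dirichlet character -/
noncomputable def jc (k : ℕ) [NeZero k] : DirichletCharacter ℂ k where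
  toFun a := ((jacobiSym (a.val : ℤ) k : ℤ) : ℂ)
  map_one' := by
    have h : ((1 : ZMod k).val : ℤ) ≡ 1 [ZMOD k] := by
      rw [← ZMod.intCast_eq_intCast_iff]
      simp
    rw [jac_congr h, jacobiSym.one_left]
    simp
  map_mul' a b := by
    have h : ((a * b).val : ℤ) ≡ (a.val : ℤ) * (b.val : ℤ) [ZMOD k] := by
      rw [← ZMod.intCast_eq_intCast_iff]
      simp
    rw [jac_congr h, jacobiSym.mul_left]
    push_cast
    rfl
  map_nonunit' a ha := by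
    have h : ¬ (a.val).Coprime k := by
      intro h
      apply ha
      have := (ZMod.isUnit_iff_coprime a.val k).2 h
      simpa using this
    have h2 : jacobiSym (a.val : ℤ) k = 0 := by
      rw [jacobiSym.eq_zero_iff_not_coprime]
      rw [Int.gcd_natCast_natCast]
      exact h
    rw [h2]
    simp

theorem jc_apply (k : ℕ) [NeZero k] (n : ℕ) : jc k (n : ZMod k) = ((jacobiSym (n : ℤ) k : ℤ) : ℂ) := by
  show ((jacobiSym (((n : ZMod k)).val : ℤ) k : ℤ) : ℂ) = _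
  have h : (((n : ZMod k)).val : ℤ) ≡ (n : ℤ) [ZMOD k] := by
    rw [← ZMod.intCast_eq_intCast_iff]
    simp
  rw [jac_congr h]

/-- an odd non-square modulus has a non-residue -/
theorem exists_neg {k : ℕ} (hk : Odd k) (hs : ¬ IsSquare k) : ∃ n : ℕ, jacobiSym (n : ℤ) k = -1 := by
  have hk0 : k ≠ 0 := by rintro rfl; exact absurd hk (by decide)
  obtain ⟨a, b, hab, ha⟩ := Nat.sq_mul_squarefree k
  have ha1 : a ≠ 1 := by
    rintro rfl
    exact hs ⟨b, by rw [← hab]; ring⟩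
  obtain ⟨p, hp, hpa⟩ := Nat.exists_prime_and_dvd ha1
  have hb0 : b ≠ 0 := by rintro rfl; simp at hab; exact hk0 hab.symm
  have ha0 : a ≠ 0 := ha.ne_zero
  have hfa : a.factorization p = 1 := by
    have h1 := ha.natFactorization_le_one p
    have h2 : 0 < a.factorization p := hp.factorization_pos_of_dvd ha0 hpa
    omega
  have hfk : k.factorization p = 2 * b.factorization p + 1 := by
    rw [← hab, Nat.factorization_mul (pow_ne_zero 2 hb0) ha0, Nat.factorization_pow]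
    simp [hfa]
  obtain ⟨e, m, hpm, hkm⟩ := Nat.exists_eq_pow_mul_and_not_dvd hk0 p hp.ne_one
  have he : e = 2 * b.factorization p + 1 := by
    have hm0 : m ≠ 0 := by rintro rfl; simp at hkm; exact hk0 hkm
    have h1 : k.factorization p = e := by
      rw [hkm, Nat.factorization_mul (pow_ne_zero _ hp.ne_zero) hm0, Nat.factorization_pow]
      simp [hp.factorization_self, Nat.factorization_eq_zero_of_not_dvd hpm]
    omega
  haveI : Fact p.Prime := ⟨hp⟩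
  have hp2 : p ≠ 2 := by
    rintro rfl
    have h1 : 2 ∣ k := by
      rw [hkm, he]
      exact Dvd.dvd.mul_right (dvd_pow_self 2 (by omega)) m
    rcases hk with ⟨c, hc⟩
    omega
  obtain ⟨g, hg⟩ := quadraticChar_exists_neg_one (F := ZMod p) (by rwa [ZMod.ringChar_zmod_n])
  have hco : Nat.Coprime p m := (Nat.Prime.coprime_iff_not_dvd hp).2 hpm
  obtain ⟨n, hn1, hn2⟩ := Nat.chineseRemainder hco g.val 1
  refine ⟨n, ?_⟩
  haveI : NeZero (p ^ e) := ⟨pow_ne_zero _ hp.ne_zero⟩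
  have hm0 : m ≠ 0 := by rintro rfl; simp at hkm; exact hk0 hkm
  haveI : NeZero m := ⟨hm0⟩
  rw [hkm, jacobiSym.mul_right, jacobiSym.pow_right, ← jacobiSym.legendreSym.to_jacobiSym]
  have e1 : legendreSym p (n : ℤ) = -1 := by
    rw [legendreSym]
    have h1 : ((n : ℤ) : ZMod p) = g := by
      have h2 := (ZMod.natCast_eq_natCast_iff n g.val p).2 hn1
      rw [Int.cast_natCast, h2]
      simp
    rw [h1, hg]
  have e2 : jacobiSym (n : ℤ) m = 1 := by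
    have h1 : (n : ℤ) ≡ 1 [ZMOD m] := by
      have := Int.natCast_modEq_iff.2 hn2
      simpa using this
    rw [jac_congr h1, jacobiSym.one_left]
  rw [e1, e2, he, pow_add, pow_mul]
  simp

theorem jc_ne_one {k : ℕ} [NeZero k] (hk : Odd k) (hs : ¬ IsSquare k) : jc k ≠ 1 := by
  intro h
  obtain ⟨n, hn⟩ := exists_neg hk hs
  have h1 := jc_apply k n
  rw [hn, h] at h1
  have h2 : (n : ZMod k) ∈ {x : ZMod k | IsUnit x} ∨ ¬ IsUnit (n : ZMod k) := by
    by_cases h : IsUnit (n : ZMod k)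
    · exact Or.inl h
    · exact Or.inr h
  rcases h2 with h2 | h2
  · rw [MulChar.one_apply h2] at h1
    norm_num at h1
  · rw [MulChar.map_nonunit _ h2] at h1
    norm_num at h1

/-- the bound of Polya and Vinogradov -/
noncomputable def pvB (k : ℕ) : ℝ := k.divisors.card * (Real.sqrt k * (1 + Real.log k))

theorem pvB_nonneg (k : ℕ) : 0 ≤ pvB k := by
  unfold pvB
  have : 0 ≤ Real.log k := Real.log_natCast_nonneg k
  positivity

theorem pv_nat {k : ℕ} (hk : Odd k) (hs : ¬ IsSquare k) (N : ℕ) :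
    |∑ m ∈ Icc 1 N, ((jacobiSym (m : ℤ) k : ℤ) : ℝ)| ≤ pvB k := by
  have hk0 : k ≠ 0 := by rintro rfl; exact absurd hk (by decide)
  haveI : NeZero k := ⟨hk0⟩
  have h := PV.imprim (jc_ne_one hk hs) N
  have h1 : (∑ m ∈ Icc 1 N, jc k (m : ZMod k)) =
      ((∑ m ∈ Icc 1 N, ((jacobiSym (m : ℤ) k : ℤ) : ℝ) : ℝ) : ℂ) := by
    push_cast
    exact Finset.sum_congr rfl fun m _ => jc_apply k m
  rw [h1, Complex.norm_real, Real.norm_eq_abs] at h
  exact h

/-! ### arithmetic progressions -/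

/-- the natural numbers `1 ≤ h ≤ X`, `h ≡ r mod N`, free of `p ^ a p` for `p ∈ Q` -/
noncomputable def cl (N : ℕ) (a : ℕ → ℕ) (Q : Finset ℕ) (X : ℝ) (r : ℕ) : Finset ℕ :=
  (Icc 1 ⌊X⌋₊).filter fun h => h ≡ r [MOD N] ∧ ∀ p ∈ Q, ¬ p ^ a p ∣ h

/-- every progression is parametrised -/
theorem sum_ap {N : ℕ} (hN : 0 < N) (a : ℕ → ℕ) (X : ℝ) (r : ℕ) (f : ℕ → ℝ) :
    ∃ (r₀ J : ℕ), 1 ≤ r₀ ∧ r₀ ≤ N ∧ r₀ ≡ r [MOD N] ∧
      ∑ h ∈ cl N a ∅ X r, f h = ∑ j ∈ range J, f (r₀ + N * j) ∧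
      J = (⌊X⌋₊ + N - r₀) / N := by
  obtain ⟨r₀, h1, h2, h3⟩ : ∃ r₀, 1 ≤ r₀ ∧ r₀ ≤ N ∧ r₀ ≡ r [MOD N] := by
    by_cases h : r % N = 0
    · refine ⟨N, hN, le_rfl, ?_⟩
      unfold Nat.ModEq
      rw [h, Nat.mod_self]
    · exact ⟨r % N, by omega, (Nat.mod_lt _ hN).le, Nat.mod_modEq _ _⟩
  refine ⟨r₀, (⌊X⌋₊ + N - r₀) / N, h1, h2, h3, ?_, rfl⟩
  symm
  refine Finset.sum_nbij' (fun j => r₀ + N * j) (fun h => (h - r₀) / N) ?_ ?_ ?_ ?_ ?_
  · intro j hj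
    rw [mem_range, Nat.lt_div_iff_mul_lt hN] at hj
    simp only [cl, mem_filter, mem_Icc, notMem_empty, false_imp_iff, implies_true, and_true]
    refine ⟨⟨by omega, ?_⟩, ?_⟩
    · rw [mul_comm] at hj
      omega
    · have := Nat.ModEq.add h3 (Nat.modEq_zero_iff_dvd.2 (Dvd.intro j rfl : N ∣ N * j))
      simpa using this
  · intro h hh
    simp only [cl, mem_filter, mem_Icc, notMem_empty, false_imp_iff, implies_true, and_true] at hh
    obtain ⟨⟨h4, h5⟩, h6⟩ := hh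
    rw [mem_range, Nat.lt_div_iff_mul_lt hN]
    have h7 : r₀ ≤ h := by
      by_contra hlt
      push Not at hlt
      have h8 : h ≡ r₀ [MOD N] := h6.trans h3.symm
      have h9 := (Nat.modEq_iff_dvd' hlt.le).1 h8
      have := Nat.le_of_dvd (by omega) h9
      omega
    have h10 := Nat.div_mul_le_self (h - r₀) N
    have h8 : r₀ ≡ h [MOD N] := (h6.trans h3.symm).symm
    have h9 := (Nat.modEq_iff_dvd' h7).1 h8
    rw [Nat.div_mul_cancel h9]
    omega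
  · intro j _
    simp [hN.ne']
  · intro h hh
    simp only [cl, mem_filter, mem_Icc, notMem_empty, false_imp_iff, implies_true, and_true] at hh
    obtain ⟨⟨h4, h5⟩, h6⟩ := hh
    have h7 : r₀ ≤ h := by
      by_contra hlt
      push Not at hlt
      have h8 : h ≡ r₀ [MOD N] := h6.trans h3.symm
      have h9 := (Nat.modEq_iff_dvd' hlt.le).1 h8
      have := Nat.le_of_dvd (by omega) h9
      omega
    have h8 : r₀ ≡ h [MOD N] := (h6.trans h3.symm).symm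
    have h9 := (Nat.modEq_iff_dvd' h7).1 h8
    show r₀ + N * ((h - r₀) / N) = h
    rw [Nat.mul_div_cancel' h9]
    omega
  · intro j _
    rfl

theorem pv_ap {N : ℕ} (hN : 0 < N) (a : ℕ → ℕ) {k : ℕ} (hk : Odd k) (hs : ¬ IsSquare k)
    (hkN : k.Coprime N) (X : ℝ) (r : ℕ) :
    |∑ h ∈ cl N a ∅ X r, ((jacobiSym (h : ℤ) k : ℤ) : ℝ)| ≤ 2 * pvB k := by
  have hk0 : k ≠ 0 := by rintro rfl; exact absurd hk (by decide)
  haveI : NeZero k := ⟨hk0⟩
  obtain ⟨r₀, J, h1, h2, h3, h4, h5⟩ := sum_ap hN a X r fun h => ((jacobiSym (h : ℤ) k : ℤ) : ℝ)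
  rw [h4]
  obtain ⟨c, hc⟩ : ∃ c : ℕ, N * (c + 1) ≡ r₀ [MOD k] := by
    obtain ⟨u, hu⟩ : ∃ u : ℕ, N * u ≡ r₀ [MOD k] := by
      refine ⟨((r₀ : ZMod k) * (N : ZMod k)⁻¹).val, ?_⟩
      rw [← ZMod.natCast_eq_natCast_iff]
      push_cast
      rw [ZMod.natCast_zmod_val]
      have hu : IsUnit (N : ZMod k) := (ZMod.isUnit_iff_coprime N k).2 hkN.symm
      rw [mul_comm (r₀ : ZMod k), ← mul_assoc, ZMod.mul_inv_of_unit _ hu, one_mul]
    refine ⟨u + k - 1, ?_⟩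
    have e1 : u + k - 1 + 1 = u + k := by
      have := Nat.pos_of_ne_zero hk0
      omega
    rw [e1, mul_add]
    have := Nat.ModEq.add hu (Nat.modEq_zero_iff_dvd.2 (Dvd.intro_left N rfl : k ∣ N * k))
    simpa using this
  have e1 : ∀ j ∈ range J, ((jacobiSym ((r₀ + N * j : ℕ) : ℤ) k : ℤ) : ℝ) =
      ((jacobiSym (N : ℤ) k : ℤ) : ℝ) * ((jacobiSym ((c + 1 + j : ℕ) : ℤ) k : ℤ) : ℝ) := by
    intro j _
    rw [← Int.cast_mul, ← jacobiSym.mul_left]
    congr 1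
    refine jac_congr ?_
    have h6 : r₀ + N * j ≡ N * (c + 1 + j) [MOD k] := by
      rw [mul_add]
      exact Nat.ModEq.add_right _ hc.symm
    have := Int.natCast_modEq_iff.2 h6
    rw [Nat.cast_mul] at this
    exact this
  rw [Finset.sum_congr rfl e1, ← Finset.mul_sum, abs_mul]
  have e2 : |((jacobiSym (N : ℤ) k : ℤ) : ℝ)| ≤ 1 := by
    rcases jacobiSym.trichotomy (N : ℤ) k with h | h | h <;> rw [h] <;> simp
  have e3 : ∑ j ∈ range J, ((jacobiSym ((c + 1 + j : ℕ) : ℤ) k : ℤ) : ℝ) =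
      ∑ m ∈ Icc 1 (c + J), ((jacobiSym (m : ℤ) k : ℤ) : ℝ) -
        ∑ m ∈ Icc 1 c, ((jacobiSym (m : ℤ) k : ℤ) : ℝ) := by
    have e4 : ∀ M : ℕ, Icc 1 M = Ico 1 (M + 1) := fun M => by
      ext x; simp only [mem_Icc, mem_Ico]; omega
    rw [e4, e4, eq_sub_iff_add_eq, add_comm, ← Finset.sum_Ico_consecutive _ (show 1 ≤ c + 1 by omega)
      (show c + 1 ≤ c + J + 1 by omega)]
    congr 1
    rw [Finset.sum_Ico_eq_sum_range]
    have e5 : c + J + 1 - (c + 1) = J := by omega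
    rw [e5]
  calc |((jacobiSym (N : ℤ) k : ℤ) : ℝ)| * |∑ j ∈ range J, ((jacobiSym ((c + 1 + j : ℕ) : ℤ) k : ℤ) : ℝ)|
      ≤ 1 * |∑ j ∈ range J, ((jacobiSym ((c + 1 + j : ℕ) : ℤ) k : ℤ) : ℝ)| := by gcongr
    _ = |∑ m ∈ Icc 1 (c + J), ((jacobiSym (m : ℤ) k : ℤ) : ℝ) -
        ∑ m ∈ Icc 1 c, ((jacobiSym (m : ℤ) k : ℤ) : ℝ)| := by rw [one_mul, e3]
    _ ≤ |∑ m ∈ Icc 1 (c + J), ((jacobiSym (m : ℤ) k : ℤ) : ℝ)| +
        |∑ m ∈ Icc 1 c, ((jacobiSym (m : ℤ) k : ℤ) : ℝ)| := abs_sub _ _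
    _ ≤ 2 * pvB k := by linarith [pv_nat hk hs (c + J), pv_nat hk hs c]

theorem count_ap {N : ℕ} (hN : 0 < N) (a : ℕ → ℕ) {X : ℝ} (hX : 0 ≤ X) (r : ℕ) :
    |∑ h ∈ cl N a ∅ X r, (1 : ℝ) - X / N| ≤ 1 := by
  obtain ⟨r₀, J, h1, h2, h3, h4, h5⟩ := sum_ap hN a X r fun _ => (1 : ℝ)
  rw [h4, Finset.sum_const, Finset.card_range, nsmul_eq_mul, mul_one]
  have hNr : (0 : ℝ) < N := by exact_mod_cast hN
  have e1 : J * N ≤ ⌊X⌋₊ + N - r₀ := by rw [h5]; exact Nat.div_mul_le_self _ _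
  have e2 : ⌊X⌋₊ + N - r₀ < (J + 1) * N := by
    rw [h5, mul_comm]
    exact Nat.lt_mul_div_succ _ hN
  have e3 : (J : ℝ) * N ≤ X + N - r₀ := by
    have h6 : J * N + r₀ ≤ ⌊X⌋₊ + N := by omega
    have h7 : (J : ℝ) * N + r₀ ≤ ⌊X⌋₊ + N := by exact_mod_cast h6
    have h8 := Nat.floor_le hX
    linarith
  have e4 : X + N - r₀ < (J + 1) * N := by
    have h6 : ⌊X⌋₊ + N < (J + 1) * N + r₀ := by omega
    have h6' : ⌊X⌋₊ + N + 1 ≤ (J + 1) * N + r₀ := h6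
    have h7 : (⌊X⌋₊ : ℝ) + N + 1 ≤ (J + 1) * N + r₀ := by exact_mod_cast h6'
    have h8 := Nat.lt_floor_add_one X
    linarith
  have h1' : (1 : ℝ) ≤ r₀ := by exact_mod_cast h1
  have h2' : (r₀ : ℝ) ≤ N := by exact_mod_cast h2
  rw [abs_le]
  constructor
  · rw [neg_le_sub_iff_le_add, div_le_iff₀ hNr]
    nlinarith
  · rw [sub_le_iff_le_add, ← sub_le_iff_le_add', le_div_iff₀ hNr]
    nlinarith

end P004E.H147
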