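import Vale.Agent.P004E.H147.PV1

/-!
# the sieve by finitely many prime powers in an arithmetic progression
-/

set_option linter.all false

open Finset

namespace P004E.H147

/-- removing the multiples of `p ^ a p` -/
theorem sum_insert {N : ℕ} (hN : 0 < N) (a : ℕ → ℕ) {Q : Finset ℕ} {p : ℕ} (hp : p.Prime)
    (hpN : ¬ p ∣ N) (hpQ : p ∉ Q) (hQ : ∀ q ∈ Q, q.Prime) {X : ℝ} (hX : 0 ≤ X) (r : ℕ)
    (f : ℕ → ℝ) (hf : ∀ m n, f (m * n) = f m * f n) :
    ∃ r' : ℕ, ∑ h ∈ cl N a (insert p Q) X r, f h =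
      ∑ h ∈ cl N a Q X r, f h - f (p ^ a p) * ∑ h ∈ cl N a Q (X / (p ^ a p : ℕ)) r', f h := by
  have hco : Nat.Coprime (p ^ a p) N := Nat.Coprime.pow_left _ ((Nat.Prime.coprime_iff_not_dvd hp).2 hpN)
  haveI : NeZero N := ⟨hN.ne'⟩
  obtain ⟨r', hr'⟩ : ∃ u : ℕ, p ^ a p * u ≡ r [MOD N] := by
    refine ⟨((r : ZMod N) * ((p ^ a p : ℕ) : ZMod N)⁻¹).val, ?_⟩
    rw [← ZMod.natCast_eq_natCast_iff]
    push_cast
    rw [ZMod.natCast_zmod_val]
    have hu : IsUnit (((p ^ a p : ℕ)) : ZMod N) := (ZMod.isUnit_iff_coprime _ N).2 hco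
    have := ZMod.mul_inv_of_unit _ hu
    push_cast at this
    rw [mul_comm (r : ZMod N), ← mul_assoc, this, one_mul]
  refine ⟨r', ?_⟩
  set P := p ^ a p with hP
  have hP0 : 0 < P := pow_pos hp.pos _
  have hPr : (0 : ℝ) < (P : ℕ) := by exact_mod_cast hP0
  have e1 : cl N a (insert p Q) X r = (cl N a Q X r).filter (fun h => ¬ P ∣ h) := by
    ext h
    simp only [cl, mem_filter, mem_insert, forall_eq_or_imp]
    tauto
  have e2 : ∑ h ∈ (cl N a Q X r).filter (fun h => P ∣ h), f h =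
      f P * ∑ h ∈ cl N a Q (X / (P : ℕ)) r', f h := by
    rw [Finset.mul_sum]
    symm
    refine Finset.sum_nbij' (fun h => P * h) (fun h => h / P) ?_ ?_ ?_ ?_ ?_
    · intro h hh
      simp only [cl, mem_filter, mem_Icc] at hh ⊢
      obtain ⟨⟨h1, h2⟩, h3, h4⟩ := hh
      refine ⟨⟨⟨Nat.mul_pos hP0 h1, ?_⟩, ?_, ?_⟩, Dvd.intro _ rfl⟩
      · rw [Nat.le_floor_iff (by positivity)] at h2
        rw [le_div_iff₀ hPr] at h2
        apply Nat.le_floor
        push_cast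
        linarith
      · exact (Nat.ModEq.mul_left P h3).trans hr'
      · intro q hq hqd
        apply h4 q hq
        have hne : q ≠ p := fun h => hpQ (h ▸ hq)
        have hc : Nat.Coprime (q ^ a q) P :=
          Nat.Coprime.pow _ _ ((Nat.coprime_primes (hQ q hq) hp).2 hne)
        exact hc.dvd_of_dvd_mul_left hqd
    · intro h hh
      simp only [cl, mem_filter, mem_Icc] at hh ⊢
      obtain ⟨⟨⟨h1, h2⟩, h3, h4⟩, c, rfl⟩ := hh
      rw [Nat.mul_div_cancel_left _ hP0]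
      have hc0 : 1 ≤ c := by
        rcases Nat.eq_zero_or_pos c with h | h
        · rw [h, mul_zero] at h1; omega
        · exact h
      refine ⟨⟨hc0, ?_⟩, ?_, ?_⟩
      · rw [Nat.le_floor_iff hX] at h2
        apply Nat.le_floor
        rw [le_div_iff₀ hPr]
        push_cast at h2
        linarith
      · have h5 : P * c ≡ P * r' [MOD N] := h3.trans hr'.symm
        exact Nat.ModEq.cancel_left_of_coprime (by rw [Nat.gcd_comm]; exact hco) h5
      · intro q hq hqd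
        exact h4 q hq (Dvd.dvd.mul_left hqd P)
    · intro h _
      exact Nat.mul_div_cancel_left _ hP0
    · intro h hh
      simp only [mem_filter] at hh
      exact Nat.mul_div_cancel' hh.2
    · intro h _
      exact (hf P h).symm
  have e3 := Finset.sum_filter_add_sum_filter_not (cl N a Q X r) (fun h => P ∣ h) f
  rw [e1, ← e2]
  linarith

/-- an absolute bound -/
theorem sieve_abs {N : ℕ} (hN : 0 < N) (a : ℕ → ℕ) (f : ℕ → ℝ) (hf : ∀ m n, f (m * n) = f m * f n)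
    (hf1 : ∀ n, |f n| ≤ 1) {B : ℝ}
    (hB : ∀ (X : ℝ) (r : ℕ), 0 ≤ X → |∑ h ∈ cl N a ∅ X r, f h| ≤ B) (Q : Finset ℕ) :
    (∀ p ∈ Q, p.Prime ∧ ¬ p ∣ N) → ∀ (X : ℝ) (r : ℕ), 0 ≤ X →
      |∑ h ∈ cl N a Q X r, f h| ≤ 2 ^ Q.card * B := by
  induction Q using Finset.induction_on with
  | empty =>
    intro _ X r hX
    simpa using hB X r hX
  | insert p Q hpQ ih =>
    intro hQ X r hX
    have hQ' : ∀ q ∈ Q, q.Prime ∧ ¬ q ∣ N := fun q hq => hQ q (mem_insert_of_mem hq)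
    obtain ⟨r', h1⟩ := sum_insert hN a (hQ p (mem_insert_self _ _)).1
      (hQ p (mem_insert_self _ _)).2 hpQ (fun q hq => (hQ' q hq).1) hX r f hf
    rw [h1, card_insert_of_notMem hpQ, pow_succ]
    have h2 := ih hQ' X r hX
    have h3 := ih hQ' (X / (p ^ a p : ℕ)) r' (by positivity)
    refine (abs_sub _ _).trans ?_
    rw [abs_mul]
    have h4 : |f (p ^ a p)| * |∑ h ∈ cl N a Q (X / (p ^ a p : ℕ)) r', f h| ≤ 1 * (2 ^ Q.card * B) :=
      mul_le_mul (hf1 _) h3 (abs_nonneg _) zero_le_one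
    linarith

/-- the count with its main term -/
theorem sieve_count {N : ℕ} (hN : 0 < N) (a : ℕ → ℕ) (Q : Finset ℕ) :
    (∀ p ∈ Q, p.Prime ∧ ¬ p ∣ N) → ∀ (X : ℝ) (r : ℕ), 0 ≤ X →
      |∑ h ∈ cl N a Q X r, (1 : ℝ) - X / N * ∏ p ∈ Q, (1 - 1 / (p : ℝ) ^ a p)| ≤ 2 ^ Q.card := by
  induction Q using Finset.induction_on with
  | empty =>
    intro _ X r hX
    simpa using count_ap hN a hX r
  | insert p Q hpQ ih =>
    intro hQ X r hX
    have hQ' : ∀ q ∈ Q, q.Prime ∧ ¬ q ∣ N := fun q hq => hQ q (mem_insert_of_mem hq)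
    obtain ⟨r', h1⟩ := sum_insert hN a (hQ p (mem_insert_self _ _)).1
      (hQ p (mem_insert_self _ _)).2 hpQ (fun q hq => (hQ' q hq).1) hX r (fun _ => (1 : ℝ))
      (fun _ _ => (one_mul 1).symm)
    rw [h1, card_insert_of_notMem hpQ, pow_succ, Finset.prod_insert hpQ]
    have h2 := ih hQ' X r hX
    have h3 := ih hQ' (X / (p ^ a p : ℕ)) r' (by positivity)
    have e1 : ∑ h ∈ cl N a Q X r, (1 : ℝ) - 1 * ∑ h ∈ cl N a Q (X / (p ^ a p : ℕ)) r', (1 : ℝ) -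
        X / N * ((1 - 1 / (p : ℝ) ^ a p) * ∏ q ∈ Q, (1 - 1 / (q : ℝ) ^ a q)) =
        (∑ h ∈ cl N a Q X r, (1 : ℝ) - X / N * ∏ q ∈ Q, (1 - 1 / (q : ℝ) ^ a q)) -
        (∑ h ∈ cl N a Q (X / (p ^ a p : ℕ)) r', (1 : ℝ) -
          X / (p ^ a p : ℕ) / N * ∏ q ∈ Q, (1 - 1 / (q : ℝ) ^ a q)) := by
      push_cast
      ring
    rw [e1]
    refine (abs_sub _ _).trans ?_
    linarith

end P004E.H147
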