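import Vale.Agent.P004E.H147.PV2
import Vale.Agent.P004E.H156.Spec

/-!
# P004E, module F-PV: the mean value of `(h/k)` over a class (helper147)

`pv_class` : for `2 ∣ N`, `1 < N`, the sum of `(h/k)` over `Y < 2|h| ≤ 2Y`, `sgn h = σ`,
`h = 1 mod N`, `h` free of `p²` for all primes `p ≤ D`, `p ∤ N`, is
`densD N D * Y * rhoN N D k + O(√k (1 + log k) d(k))`.
-/

set_option linter.all false

open Finset

namespace P004E.H147

open P004 (chi dv)
open P004E.H156 (rhoN)

/-- the primes of the sieve -/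
noncomputable def Pr (N D : ℕ) : Finset ℕ := (range (D + 1)).filter (fun p => p.Prime ∧ ¬ p ∣ N)

open scoped Classical in
/-- the class -/
noncomputable def clsD (N D : ℕ) (σ : ℤ) (Y : ℕ) : Finset ℤ :=
  (Icc (-(Y : ℤ)) Y).filter fun h => (Y : ℤ) < 2 * |h| ∧ h.sign = σ ∧ h % (N : ℤ) = 1 ∧
    ∀ p : ℕ, p.Prime → p ≤ D → ¬ p ∣ N → ¬ ((p : ℤ) ^ 2 ∣ h)

/-- the density of the class (number of elements / `Y`) -/
noncomputable def densD (N D : ℕ) : ℝ := 1 / (2 * N) * ∏ p ∈ Pr N D, (1 - 1 / (p : ℝ) ^ 2)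

theorem exists_odd_exp {k : ℕ} (hk0 : k ≠ 0) (hs : ¬ IsSquare k) :
    ∃ p : ℕ, p.Prime ∧ p ∣ k ∧ ¬ Even (k.factorization p) := by
  obtain ⟨a, b, hab, ha⟩ := Nat.sq_mul_squarefree k
  have ha1 : a ≠ 1 := by
    rintro rfl
    exact hs ⟨b, by rw [← hab]; ring⟩
  obtain ⟨p, hp, hpa⟩ := Nat.exists_prime_and_dvd ha1
  have hb0 : b ≠ 0 := by rintro rfl; simp at hab; exact hk0 hab.symm
  have ha0 : a ≠ 0 := ha.ne_zero
  have hfa : a.factorization p = 1 := by
    have h1 := ha.natFactorization_le_one p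
    have h2 : 0 < a.factorization p := hp.factorization_pos_of_dvd ha0 hpa
    omega
  have hfk : k.factorization p = 2 * b.factorization p + 1 := by
    rw [← hab, Nat.factorization_mul (pow_ne_zero 2 hb0) ha0, Nat.factorization_pow]
    simp [hfa]
  refine ⟨p, hp, ?_, ?_⟩
  · rw [← hab]
    exact Dvd.dvd.mul_left hpa _
  · rw [hfk]
    simp

theorem split {N : ℕ} (k : ℕ) (hk : k ≠ 0) : ∃ a b : ℕ, k = a * b ∧
    (∀ h : ℤ, h ≡ 1 [ZMOD N] → jacobiSym h a = 1) ∧
    (∀ p : ℕ, p.Prime → p ∣ a → p ∣ N) ∧ b.Coprime N := by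
  induction k using Nat.strong_induction_on with
  | _ k ih =>
    by_cases hc : k.Coprime N
    · exact ⟨1, k, (one_mul k).symm, fun h _ => jacobiSym.one_right h,
        fun p hp hp1 => absurd (Nat.dvd_one.1 hp1) hp.ne_one, hc⟩
    · obtain ⟨p, hp, hpk, hpN⟩ := Nat.Prime.not_coprime_iff_dvd.1 hc
      obtain ⟨k₁, rfl⟩ := hpk
      have hk1 : k₁ ≠ 0 := by rintro rfl; simp at hk
      have hlt : k₁ < p * k₁ := by
        have := hp.two_le
        nlinarith [Nat.pos_of_ne_zero hk1]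
      obtain ⟨a, b, h1, h2, h3, h4⟩ := ih k₁ hlt hk1
      refine ⟨p * a, b, by rw [h1]; ring, ?_, ?_, h4⟩
      · intro h hh
        haveI : NeZero p := ⟨hp.ne_zero⟩
        have ha0 : a ≠ 0 := by rintro rfl; simp at h1; exact hk1 h1
        haveI : NeZero a := ⟨ha0⟩
        rw [jacobiSym.mul_right, h2 h hh, mul_one]
        have h5 : h ≡ 1 [ZMOD p] := hh.of_dvd (Int.natCast_dvd_natCast.2 hpN)
        rw [jac_congr h5, jacobiSym.one_left]
      · intro q hq hqa
        rcases (Nat.Prime.dvd_mul hq).1 hqa with h | h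
        · rw [(Nat.prime_dvd_prime_iff_eq hq hp).1 h]
          exact hpN
        · exact h3 q hq h

theorem rhoN_split {N D a b : ℕ} (ha0 : a ≠ 0) (hb0 : b ≠ 0)
    (ha : ∀ p : ℕ, p.Prime → p ∣ a → p ∣ N) (hb : b.Coprime N) :
    rhoN N D (a * b) = ∏ p ∈ b.primeFactors, if Even (b.factorization p) then
      (if p ≤ D then (p : ℝ) / (p + 1) else 1 - 1 / (p : ℝ)) else 0 := by
  rw [rhoN, if_neg (Nat.mul_ne_zero ha0 hb0), Nat.primeFactors_mul ha0 hb0]
  have hbp : ∀ p ∈ b.primeFactors, ¬ p ∣ N := by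
    intro p hp hpN
    have h1 := Nat.dvd_of_mem_primeFactors hp
    exact (Nat.prime_of_mem_primeFactors hp).one_lt.ne' (Nat.eq_one_of_dvd_coprimes hb h1 hpN)
  have hd : Disjoint a.primeFactors b.primeFactors := by
    rw [Finset.disjoint_left]
    intro p h1 h2
    exact hbp p h2 (ha p (Nat.prime_of_mem_primeFactors h1) (Nat.dvd_of_mem_primeFactors h1))
  rw [Finset.prod_union hd]
  have e1 : ∏ p ∈ a.primeFactors, (if p ∣ N then (1 : ℝ) else
      if Even ((a * b).factorization p) then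
        (if p ≤ D then (p : ℝ) / (p + 1) else 1 - 1 / (p : ℝ)) else 0) = 1 := by
    refine Finset.prod_eq_one fun p hp => ?_
    rw [if_pos (ha p (Nat.prime_of_mem_primeFactors hp) (Nat.dvd_of_mem_primeFactors hp))]
  rw [e1, one_mul]
  refine Finset.prod_congr rfl fun p hp => ?_
  rw [if_neg (hbp p hp)]
  have e2 : (a * b).factorization p = b.factorization p := by
    rw [Nat.factorization_mul ha0 hb0, Finsupp.add_apply, Nat.factorization_eq_zero_of_not_dvd
      (fun h => hbp p hp (ha p (Nat.prime_of_mem_primeFactors hp) h)), zero_add]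
  rw [e2]

/-- reduction of the class to natural numbers -/
theorem sum_clsD {N : ℕ} (hN : 1 < N) (D : ℕ) {σ : ℤ} (hσ : σ = 1 ∨ σ = -1) :
    ∃ r : ℕ, (r : ℤ) ≡ σ [ZMOD N] ∧ ∀ (Y : ℕ) (g : ℤ → ℝ),
      ∑ h ∈ clsD N D σ Y, g h = ∑ n ∈ cl N (fun _ => 2) (Pr N D) Y r, g (σ * n) -
        ∑ n ∈ cl N (fun _ => 2) (Pr N D) ((Y : ℝ) / 2) r, g (σ * n) := by
  obtain ⟨r, hr⟩ : ∃ r : ℕ, (r : ℤ) ≡ σ [ZMOD N] := by
    rcases hσ with rfl | rfl
    · exact ⟨1, by simp⟩
    · refine ⟨N - 1, ?_⟩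
      rw [Int.modEq_iff_dvd]
      refine ⟨-1, ?_⟩
      push_cast [Nat.cast_sub hN.le]
      ring
  have hσ2 : σ * σ = 1 := by rcases hσ with rfl | rfl <;> norm_num
  refine ⟨r, hr, fun Y g => ?_⟩
  have hsub : cl N (fun _ => 2) (Pr N D) ((Y : ℝ) / 2) r ⊆ cl N (fun _ => 2) (Pr N D) Y r := by
    intro n hn
    simp only [cl, mem_filter, mem_Icc] at hn ⊢
    refine ⟨⟨hn.1.1, hn.1.2.trans (Nat.floor_le_floor ?_)⟩, hn.2⟩
    have : (0 : ℝ) ≤ Y := Nat.cast_nonneg Y
    linarith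
  rw [eq_sub_iff_add_eq, ← Finset.sum_sdiff hsub]
  congr 1
  have hmod : ∀ n : ℕ, n ≡ r [MOD N] ↔ (σ * (n : ℤ)) % (N : ℤ) = 1 := by
    intro n
    have h1 : (σ * (n : ℤ)) % (N : ℤ) = 1 ↔ σ * (n : ℤ) ≡ 1 [ZMOD N] := by
      rw [Int.ModEq, Int.emod_eq_of_lt (show (0 : ℤ) ≤ 1 by norm_num) (by exact_mod_cast hN)]
    rw [h1, ← Int.natCast_modEq_iff]
    constructor
    · intro h
      have h2 := (h.trans hr).mul_left σ
      rwa [hσ2] at h2
    · intro h
      have h2 := h.mul_left σ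
      rw [← mul_assoc, hσ2, one_mul, mul_one] at h2
      exact h2.trans hr.symm
  symm
  refine Finset.sum_nbij' (fun n : ℕ => σ * (n : ℤ)) (fun h => h.natAbs) ?_ ?_ ?_ ?_ ?_
  · intro n hn
    rw [mem_sdiff] at hn
    obtain ⟨h1, h2⟩ := hn
    simp only [cl, mem_filter, mem_Icc, Nat.floor_natCast] at h1
    obtain ⟨⟨h3, h4⟩, h5, h6⟩ := h1
    have h7 : ¬ n ≤ ⌊(Y : ℝ) / 2⌋₊ := by
      intro h7
      apply h2
      simp only [cl, mem_filter, mem_Icc]
      exact ⟨⟨h3, h7⟩, h5, h6⟩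
    have h8 : Y < 2 * n := by
      by_contra h8
      push Not at h8
      apply h7
      apply Nat.le_floor
      have : (2 : ℝ) * n ≤ Y := by exact_mod_cast h8
      linarith
    simp only [clsD, mem_filter, mem_Icc]
    have h9 : |σ * (n : ℤ)| = n := by
      rw [abs_mul]
      rcases hσ with rfl | rfl <;> simp
    refine ⟨?_, ?_, ?_, (hmod n).1 h5, ?_⟩
    · rcases hσ with rfl | rfl <;> constructor <;> omega
    · rw [h9]; omega
    · rcases hσ with rfl | rfl
      · rw [one_mul]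
        exact Int.sign_eq_one_of_pos (by omega)
      · exact Int.sign_eq_neg_one_of_neg (by omega)
    · intro p hp hpD hpN hd
      have h10 : p ∈ Pr N D := by
        simp only [Pr, mem_filter, mem_range]
        exact ⟨by omega, hp, hpN⟩
      apply h6 p h10
      have h11 : ((p : ℤ) ^ 2) ∣ (n : ℤ) := by
        have h12 := Dvd.dvd.mul_left hd σ
        rwa [← mul_assoc, hσ2, one_mul] at h12
      exact_mod_cast h11
  · intro h hh
    simp only [clsD, mem_filter, mem_Icc] at hh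
    obtain ⟨⟨h1, h2⟩, h3, h4, h5, h6⟩ := hh
    have h7 : σ * (h.natAbs : ℤ) = h := by
      rw [← h4, Int.sign_mul_natAbs]
    have h8 : 1 ≤ h.natAbs := by
      rcases Nat.eq_zero_or_pos h.natAbs with h8 | h8
      · rw [Int.natAbs_eq_zero] at h8
        subst h8
        rcases hσ with rfl | rfl <;> simp at h4
      · exact h8
    have h9 : (h.natAbs : ℤ) = |h| := Int.natCast_natAbs h
    rw [mem_sdiff]
    simp only [cl, mem_filter, mem_Icc, Nat.floor_natCast]
    refine ⟨⟨⟨h8, by omega⟩, ?_, ?_⟩, ?_⟩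
    · rw [hmod, h7, h5]
    · intro p hp hd
      simp only [Pr, mem_filter, mem_range] at hp
      apply h6 p hp.2.1 (by omega) hp.2.2
      have h10 : ((p ^ 2 : ℕ) : ℤ) ∣ (h.natAbs : ℤ) := Int.natCast_dvd_natCast.2 hd
      rw [Int.dvd_natAbs] at h10
      exact_mod_cast h10
    · rintro ⟨⟨h10, h11⟩, h12⟩
      rw [Nat.le_floor_iff (by positivity)] at h11
      have h13 : (2 : ℝ) * (h.natAbs : ℝ) ≤ Y := by linarith
      have h14 : 2 * h.natAbs ≤ Y := by exact_mod_cast h13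
      omega
  · intro n hn
    show (σ * (n : ℤ)).natAbs = n
    rw [Int.natAbs_mul]
    rcases hσ with rfl | rfl <;> simp
  · intro h hh
    simp only [clsD, mem_filter, mem_Icc] at hh
    show σ * (h.natAbs : ℤ) = h
    rw [← hh.2.2.1, Int.sign_mul_natAbs]
  · intro n hn
    rfl

theorem two_pow_le {b : ℕ} (hb : b ≠ 0) : (2 : ℝ) ^ b.primeFactors.card ≤ b.divisors.card := by
  rw [Nat.card_divisors hb]
  push_cast
  rw [← Finset.prod_const]
  refine Finset.prod_le_prod (fun _ _ => by norm_num) fun p hp => ?_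
  have h1 : 0 < b.factorization p :=
    (Nat.prime_of_mem_primeFactors hp).factorization_pos_of_dvd hb (Nat.dvd_of_mem_primeFactors hp)
  have h2 : (1 : ℝ) ≤ b.factorization p := by exact_mod_cast h1
  linarith

/-- the main value -/
theorem main_value {N D b : ℕ} (hb0 : b ≠ 0) (hb : b.Coprime N) :
    densD N D * ∏ p ∈ b.primeFactors, (if p ≤ D then (p : ℝ) / (p + 1) else 1 - 1 / (p : ℝ)) =
      1 / (2 * N) * ∏ p ∈ Pr N D ∪ b.primeFactors, (1 - 1 / (p : ℝ) ^ (if p ∣ b then 1 else 2)) := by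
  rw [densD, mul_assoc]
  congr 1
  have hbp : ∀ p ∈ b.primeFactors, ¬ p ∣ N := by
    intro p hp hpN
    have h1 := Nat.dvd_of_mem_primeFactors hp
    exact (Nat.prime_of_mem_primeFactors hp).one_lt.ne' (Nat.eq_one_of_dvd_coprimes hb h1 hpN)
  have e1 : ∏ p ∈ Pr N D, (1 - 1 / (p : ℝ) ^ 2) =
      ∏ p ∈ Pr N D ∪ b.primeFactors, (if p ∈ Pr N D then (1 - 1 / (p : ℝ) ^ 2) else 1) := by
    rw [Finset.prod_ite_mem]
    congr 1
    ext p
    simp
  have e2 : ∏ p ∈ b.primeFactors, (if p ≤ D then (p : ℝ) / (p + 1) else 1 - 1 / (p : ℝ)) =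
      ∏ p ∈ Pr N D ∪ b.primeFactors, (if p ∈ b.primeFactors then
        (if p ≤ D then (p : ℝ) / (p + 1) else 1 - 1 / (p : ℝ)) else 1) := by
    rw [Finset.prod_ite_mem]
    congr 1
    ext p
    simp
  rw [e1, e2, ← Finset.prod_mul_distrib]
  refine Finset.prod_congr rfl fun p hp => ?_
  rw [mem_union] at hp
  by_cases h1 : p ∈ b.primeFactors
  · have hpb : p ∣ b := Nat.dvd_of_mem_primeFactors h1
    have hpp := Nat.prime_of_mem_primeFactors h1
    have hp0 : (0 : ℝ) < p := by exact_mod_cast hpp.pos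
    rw [if_pos h1, if_pos hpb, pow_one]
    by_cases h2 : p ≤ D
    · have h3 : p ∈ Pr N D := by
        simp only [Pr, mem_filter, mem_range]
        exact ⟨by omega, hpp, hbp p h1⟩
      rw [if_pos h3, if_pos h2]
      field_simp
      ring
    · have h3 : p ∉ Pr N D := by
        simp only [Pr, mem_filter, mem_range]
        omega
      rw [if_neg h3, if_neg h2, one_mul]
  · have h2 : p ∈ Pr N D := hp.resolve_right h1
    have hpp : p.Prime := by
      simp only [Pr, mem_filter, mem_range] at h2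
      exact h2.2.1
    have hpb : ¬ p ∣ b := fun h => h1 (Nat.mem_primeFactors.2 ⟨hpp, h, hb0⟩)
    rw [if_neg h1, if_pos h2, if_neg hpb, mul_one]

theorem jac_abs_le (a : ℤ) (k : ℕ) : |((jacobiSym a k : ℤ) : ℝ)| ≤ 1 := by
  rcases jacobiSym.trichotomy a k with h | h | h <;> rw [h] <;> simp

/-- **Polya-Vinogradov in the class, with the main value** -/
theorem pv_class (N D : ℕ) (hN : 1 < N) (h2 : 2 ∣ N) {σ : ℤ} (hσ : σ = 1 ∨ σ = -1) (Y k : ℕ)
    (hk : k ≠ 0) :
    |∑ h ∈ clsD N D σ Y, chi h k - densD N D * Y * rhoN N D k| ≤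
      4 * 2 ^ (Pr N D).card * (√(k : ℝ) * (1 + Real.log k) * dv k) := by
  have hN0 : 0 < N := by omega
  obtain ⟨a, b, hab, ha1, ha2, hb⟩ := split (N := N) k hk
  have ha0 : a ≠ 0 := by rintro rfl; simp at hab; exact hk hab
  have hb0 : b ≠ 0 := by rintro rfl; simp at hab; exact hk hab
  haveI : NeZero a := ⟨ha0⟩
  haveI : NeZero b := ⟨hb0⟩
  have hbk : b ≤ k := Nat.le_of_dvd (Nat.pos_of_ne_zero hk) (hab ▸ Dvd.intro_left a rfl)
  have hdv : (b.divisors.card : ℝ) ≤ dv k := by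
    unfold dv
    exact_mod_cast Finset.card_le_card (Nat.divisors_subset_of_dvd hk (hab ▸ Dvd.intro_left a rfl))
  have hk1 : (1 : ℝ) ≤ k := by exact_mod_cast Nat.one_le_iff_ne_zero.2 hk
  have hb1 : (1 : ℝ) ≤ b := by exact_mod_cast Nat.one_le_iff_ne_zero.2 hb0
  have hbk' : (b : ℝ) ≤ k := by exact_mod_cast hbk
  have hbodd : Odd b := by
    rw [← Nat.coprime_two_right]
    exact hb.coprime_dvd_right h2
  have hPr : ∀ p ∈ Pr N D, p.Prime ∧ ¬ p ∣ N := by
    intro p hp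
    simp only [Pr, mem_filter] at hp
    exact hp.2
  obtain ⟨r, hr, hsum⟩ := sum_clsD hN D hσ
  have hchi : ∀ h ∈ clsD N D σ Y, chi h k = ((jacobiSym h b : ℤ) : ℝ) := by
    intro h hh
    simp only [clsD, mem_filter] at hh
    have h3 : h ≡ 1 [ZMOD N] := by
      rw [Int.ModEq, Int.emod_eq_of_lt (show (0 : ℤ) ≤ 1 by norm_num) (by exact_mod_cast hN)]
      exact hh.2.2.2.1
    unfold chi
    rw [hab, jacobiSym.mul_right, ha1 h h3, one_mul]
  rw [Finset.sum_congr rfl hchi, hsum Y fun h => ((jacobiSym h b : ℤ) : ℝ)]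
  have hmul : ∀ n : ℕ, ((jacobiSym (σ * (n : ℤ)) b : ℤ) : ℝ) =
      ((jacobiSym σ b : ℤ) : ℝ) * ((jacobiSym (n : ℤ) b : ℤ) : ℝ) := by
    intro n
    rw [jacobiSym.mul_left]
    push_cast
    rfl
  have hY : (0 : ℝ) ≤ Y := Nat.cast_nonneg Y
  have hpow : (0 : ℝ) < 2 ^ (Pr N D).card := by positivity
  have hlogb : 0 ≤ Real.log b := Real.log_nonneg hb1
  have hlogbk : Real.log b ≤ Real.log k := Real.log_le_log (by linarith) hbk'
  have hsq : √(b : ℝ) ≤ √(k : ℝ) := Real.sqrt_le_sqrt hbk'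
  have hsq1 : (1 : ℝ) ≤ √(k : ℝ) := Real.one_le_sqrt.2 hk1
  by_cases hs : IsSquare b
  · -- square
    have hcop : ∀ n : ℕ, ((jacobiSym (σ * (n : ℤ)) b : ℤ) : ℝ) = if n.Coprime b then 1 else 0 := by
      intro n
      obtain ⟨l, rfl⟩ := hs
      have hl0 : l ≠ 0 := by rintro rfl; simp at hb0
      haveI : NeZero l := ⟨hl0⟩
      have h3 : (σ * (n : ℤ)).gcd (l : ℤ) = Nat.gcd n l := by
        rw [Int.gcd_eq_natAbs, Int.natAbs_mul]
        rcases hσ with rfl | rfl <;> simp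
      have h4 : n.Coprime (l * l) ↔ n.Coprime l := by
        rw [Nat.coprime_mul_iff_right]; tauto
      rw [jacobiSym.mul_right]
      split_ifs with h
      · rw [h4] at h
        have h5 : (σ * (n : ℤ)).gcd (l : ℤ) = 1 := by rw [h3]; exact h
        rcases jacobiSym.eq_one_or_neg_one h5 with h6 | h6 <;> rw [h6] <;> norm_num
      · rw [h4] at h
        have h5 : jacobiSym (σ * (n : ℤ)) l = 0 := by
          rw [jacobiSym.eq_zero_iff_not_coprime, h3]
          exact h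
        rw [h5]
        norm_num
    set a' : ℕ → ℕ := fun p => if p ∣ b then 1 else 2 with ha'
    set Q : Finset ℕ := Pr N D ∪ b.primeFactors with hQ
    have hQp : ∀ p ∈ Q, p.Prime ∧ ¬ p ∣ N := by
      intro p hp
      rcases mem_union.1 hp with h | h
      · exact hPr p h
      · refine ⟨Nat.prime_of_mem_primeFactors h, fun hpN => ?_⟩
        exact (Nat.prime_of_mem_primeFactors h).one_lt.ne'
          (Nat.eq_one_of_dvd_coprimes hb (Nat.dvd_of_mem_primeFactors h) hpN)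
    have hset : ∀ X : ℝ, ∑ n ∈ cl N (fun _ => 2) (Pr N D) X r,
        ((jacobiSym (σ * (n : ℤ)) b : ℤ) : ℝ) = ∑ n ∈ cl N a' Q X r, (1 : ℝ) := by
      intro X
      rw [Finset.sum_congr rfl fun n _ => hcop n, ← Finset.sum_filter]
      congr 1
      ext n
      simp only [cl, mem_filter, mem_Icc, hQ, mem_union]
      constructor
      · rintro ⟨⟨h3, h4, h5⟩, h6⟩
        refine ⟨h3, h4, fun p hp hd => ?_⟩
        by_cases hpb : p ∣ b
        · have hpp : p.Prime := (hQp p (mem_union.2 hp)).1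
          simp only [ha', if_pos hpb, pow_one] at hd
          exact hpp.one_lt.ne' (Nat.eq_one_of_dvd_coprimes h6 hd hpb)
        · simp only [ha', if_neg hpb] at hd
          rcases hp with hp | hp
          · exact h5 p hp hd
          · exact hpb (Nat.dvd_of_mem_primeFactors hp)
      · rintro ⟨h3, h4, h5⟩
        refine ⟨⟨h3, h4, fun p hp hd => ?_⟩, ?_⟩
        · have h6 := h5 p (Or.inl hp)
          by_cases hpb : p ∣ b
          · simp only [ha', if_pos hpb, pow_one] at h6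
            exact h6 ((dvd_pow_self p (by norm_num)).trans hd)
          · simp only [ha', if_neg hpb] at h6
            exact h6 hd
        · by_contra hc
          obtain ⟨p, hp, hpn, hpb⟩ := Nat.Prime.not_coprime_iff_dvd.1 hc
          have h6 := h5 p (Or.inr (Nat.mem_primeFactors.2 ⟨hp, hpb, hb0⟩))
          simp only [ha', if_pos hpb, pow_one] at h6
          exact h6 hpn
    rw [hset, hset]
    have hev : ∀ p ∈ b.primeFactors, Even (b.factorization p) := by
      intro p _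
      obtain ⟨l, hl⟩ := hs
      have hl0 : l ≠ 0 := by rintro rfl; simp at hl; exact hb0 hl
      rw [hl, Nat.factorization_mul hl0 hl0, Finsupp.add_apply]
      exact ⟨_, rfl⟩
    have hrho : rhoN N D k = ∏ p ∈ b.primeFactors,
        (if p ≤ D then (p : ℝ) / (p + 1) else 1 - 1 / (p : ℝ)) := by
      rw [hab, rhoN_split ha0 hb0 ha2 hb]
      exact Finset.prod_congr rfl fun p hp => if_pos (hev p hp)
    have hmain := main_value (D := D) hb0 hb
    have e1 : densD N D * Y * rhoN N D k = (Y / N * ∏ p ∈ Q, (1 - 1 / (p : ℝ) ^ a' p)) -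
        ((Y : ℝ) / 2) / N * ∏ p ∈ Q, (1 - 1 / (p : ℝ) ^ a' p) := by
      rw [hrho, mul_right_comm, hmain]
      have hNr : (N : ℝ) ≠ 0 := by exact_mod_cast hN0.ne'
      field_simp
      ring
    rw [e1]
    have c1 := sieve_count hN0 a' Q hQp (Y : ℝ) r hY
    have c2 := sieve_count hN0 a' Q hQp ((Y : ℝ) / 2) r (by positivity)
    have c3 : |∑ n ∈ cl N a' Q (Y : ℝ) r, (1 : ℝ) - ∑ n ∈ cl N a' Q ((Y : ℝ) / 2) r, (1 : ℝ) -
        ((Y / N * ∏ p ∈ Q, (1 - 1 / (p : ℝ) ^ a' p)) -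
        ((Y : ℝ) / 2) / N * ∏ p ∈ Q, (1 - 1 / (p : ℝ) ^ a' p))| ≤ 2 ^ Q.card + 2 ^ Q.card := by
      rw [abs_le] at c1 c2 ⊢
      constructor <;> linarith [c1.1, c1.2, c2.1, c2.2]
    refine c3.trans ?_
    have c4 : (2 : ℝ) ^ Q.card ≤ 2 ^ (Pr N D).card * 2 ^ b.primeFactors.card := by
      rw [← pow_add]
      exact pow_le_pow_right₀ (by norm_num) (card_union_le _ _)
    have c5 := (two_pow_le hb0).trans hdv
    have c6 : (0 : ℝ) ≤ dv k := le_trans (by positivity) c5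
    have c7 : (2 : ℝ) ^ Q.card ≤ 2 ^ (Pr N D).card * dv k :=
      c4.trans (mul_le_mul_of_nonneg_left c5 hpow.le)
    have c8 : (1 : ℝ) ≤ √(k : ℝ) * (1 + Real.log k) := by nlinarith
    have c9 : dv k ≤ √(k : ℝ) * (1 + Real.log k) * dv k := by nlinarith
    nlinarith [mul_le_mul_of_nonneg_left c9 hpow.le, mul_nonneg hpow.le c6]
  · -- non square
    have hrho : rhoN N D k = 0 := by
      rw [hab, rhoN_split ha0 hb0 ha2 hb]
      obtain ⟨p, hp, hpb, hodd⟩ := exists_odd_exp hb0 hs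
      exact Finset.prod_eq_zero (Nat.mem_primeFactors.2 ⟨hp, hpb, hb0⟩) (if_neg hodd)
    rw [hrho, mul_zero, sub_zero]
    have hbd : ∀ X : ℝ, 0 ≤ X → |∑ n ∈ cl N (fun _ => 2) (Pr N D) X r,
        ((jacobiSym (σ * (n : ℤ)) b : ℤ) : ℝ)| ≤ 2 ^ (Pr N D).card * (2 * pvB b) := by
      intro X hX
      rw [Finset.sum_congr rfl fun n _ => hmul n, ← Finset.mul_sum, abs_mul]
      have h3 := sieve_abs hN0 (fun _ => 2) (fun n => ((jacobiSym (n : ℤ) b : ℤ) : ℝ))
        (fun m n => by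
          show ((jacobiSym ((m * n : ℕ) : ℤ) b : ℤ) : ℝ) = _
          rw [Nat.cast_mul, jacobiSym.mul_left]
          push_cast
          rfl) (fun n => jac_abs_le _ _)
        (fun X r _ => pv_ap hN0 (fun _ => 2) hbodd hs hb X r) (Pr N D) hPr X r hX
      calc |((jacobiSym σ b : ℤ) : ℝ)| * |∑ n ∈ cl N (fun _ => 2) (Pr N D) X r,
            ((jacobiSym (n : ℤ) b : ℤ) : ℝ)|
          ≤ 1 * (2 ^ (Pr N D).card * (2 * pvB b)) :=
            mul_le_mul (jac_abs_le _ _) h3 (abs_nonneg _) zero_le_one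
        _ = _ := one_mul _
    have c1 := hbd Y hY
    have c2 := hbd ((Y : ℝ) / 2) (by positivity)
    have c3 : pvB b ≤ √(k : ℝ) * (1 + Real.log k) * dv k := by
      unfold pvB
      rw [mul_comm]
      gcongr
    refine (abs_sub _ _).trans ?_
    nlinarith [mul_le_mul_of_nonneg_left c3 hpow.le]

end P004E.H147
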