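import Vale.Agent.P004E.H147.PV3
import Vale.Agent.P004G.H3.Tw1
import Vale.Agent.P004.B

/-!
# P004E, module F, part P2 (helper147): the twisted first moment over the class
-/

open Finset Real MeasureTheory Set

namespace P004E.H147

open P004G
open P004E.H156 (rhoN)
open P004G.H3 (dv_nonneg one_le_dv dv_mul_le dv_le abs_chi_le summable_dv_pow chi_mul)

theorem rhoN_abs_le (N D n : ℕ) : |rhoN N D n| ≤ 1 := by
  unfold rhoN
  split_ifs with h
  · simp
  · rw [Finset.abs_prod]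
    refine Finset.prod_le_one (fun _ _ => abs_nonneg _) fun p hp => ?_
    have hp1 : (1 : ℝ) ≤ p := by exact_mod_cast (Nat.prime_of_mem_primeFactors hp).one_lt.le
    split_ifs with h1 h2 h3
    · simp
    · rw [abs_of_nonneg (by positivity), div_le_one (by linarith)]
      linarith
    · have h4 : 1 / (p : ℝ) ≤ 1 := by rw [div_le_one (by linarith)]; exact hp1
      have h5 : 0 ≤ 1 / (p : ℝ) := by positivity
      rw [abs_of_nonneg (by linarith)]
      linarith
    · simp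

/-- `(1 + log n) e^{-π n U} ≤ 3 L e^{-π n U/2}` -/
theorem log_exp_le {L U : ℝ} (hL : 1 ≤ L) (hU : 0 < U) (hUL : Real.exp (-L) ≤ U) {n : ℕ}
    (hn : 0 < n) : (1 + Real.log n) * Real.exp (-π * n * U) ≤
      3 * L * Real.exp (-π * n * (U / 2)) := by
  have hnR : (0 : ℝ) < n := by exact_mod_cast hn
  have e1 : Real.exp (-π * n * U) = Real.exp (-π * n * (U / 2)) * Real.exp (-π * n * (U / 2)) := by
    rw [← Real.exp_add]
    congr 1
    ring
  have h1 : Real.log n ≤ n * U + L := by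
    have h2 : Real.log n = Real.log (n * U) - Real.log U := by
      rw [Real.log_mul hnR.ne' hU.ne']
      ring
    have h3 : Real.log (n * U) ≤ n * U := by
      have := Real.log_le_sub_one_of_pos (show 0 < (n : ℝ) * U by positivity)
      linarith
    have h4 : -L ≤ Real.log U := by
      rw [← Real.log_exp (-L)]
      exact Real.log_le_log (Real.exp_pos _) hUL
    linarith
  set x : ℝ := n * U with hx
  have hx0 : 0 < x := by positivity
  have e2 : Real.exp (-π * n * (U / 2)) = Real.exp (-(π / 2 * x)) := by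
    congr 1
    rw [hx]
    ring
  have hpi := Real.pi_gt_three
  have h5 : x * Real.exp (-(π / 2 * x)) ≤ 1 := by
    have h6 : x ≤ Real.exp (π / 2 * x) := by
      have := Real.add_one_le_exp (π / 2 * x)
      nlinarith
    calc x * Real.exp (-(π / 2 * x)) ≤ Real.exp (π / 2 * x) * Real.exp (-(π / 2 * x)) := by gcongr
      _ = 1 := by rw [← Real.exp_add]; simp
  have h7 : Real.exp (-(π / 2 * x)) ≤ 1 := Real.exp_le_one_iff.2 (by
    have : 0 ≤ π / 2 * x := by positivity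
    linarith)
  have h8 := Real.exp_pos (-(π / 2 * x))
  have h9 : (1 + Real.log n) * Real.exp (-(π / 2 * x)) ≤ 3 * L := by
    calc (1 + Real.log n) * Real.exp (-(π / 2 * x)) ≤ (1 + (x + L)) * Real.exp (-(π / 2 * x)) := by
          gcongr
      _ = (1 + L) * Real.exp (-(π / 2 * x)) + x * Real.exp (-(π / 2 * x)) := by ring
      _ ≤ (1 + L) * 1 + 1 := by gcongr
      _ ≤ 3 * L := by linarith
  rw [e1, e2, ← mul_assoc]
  gcongr

variable [Crv]

/-- the twisted first moment over the class -/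
theorem tw1_class : ∃ C : ℝ, 0 < C ∧ ∃ A : ℕ, ∀ (N D : ℕ), 1 < N → 2 ∣ N → ∀ σ : ℤ, σ = 1 ∨ σ = -1 →
    ∀ (L U : ℝ) (Y ν : ℕ) (f : ℝ → ℝ), 1 ≤ L → Real.exp (-L) ≤ U → U ≤ 1 → ν ≠ 0 →
    Measurable f → (∀ u, |f u| ≤ 1) → (∀ u, u < U → f u = 0) →
    |(∑ h ∈ clsD N D σ Y, chi h ν * Fn f h) -
      densD N D * Y * ∑' n : ℕ, bet f n * rhoN N D (ν * n)| ≤
      4 * 2 ^ (Pr N D).card * (C * L ^ A * (ν : ℝ) ^ 3 / U) := by
  obtain ⟨C1, hC1, A, hA⟩ := P004.H3.sum_dv_exp P004.pfDiv 2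
  refine ⟨24 * Real.exp 1 * C1, by positivity, A + 1, ?_⟩
  intro N D hN h2 σ hσ L U Y ν f hL hUL hU1 hν hfm hf1 hf0
  have hC : StCoef := pfCoef
  have hdvnn := dv_nonneg
  have hU : 0 < U := (Real.exp_pos _).trans_le hUL
  have hb0 : bet f 0 = 0 := by unfold bet; rw [hC.zero]; simp
  have hν1 : (1 : ℝ) ≤ ν := by exact_mod_cast Nat.one_le_iff_ne_zero.2 hν
  set K : ℝ := 4 * 2 ^ (Pr N D).card with hK
  have hK0 : 0 < K := by positivity
  -- exchange
  have hex : ∑ h ∈ clsD N D σ Y, chi h ν * Fn f h =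
      ∑' n : ℕ, bet f n * ∑ h ∈ clsD N D σ Y, chi h (ν * n) := by
    calc ∑ h ∈ clsD N D σ Y, chi h ν * Fn f h
        = ∑ h ∈ clsD N D σ Y, ∑' n : ℕ, chi h ν * (bet f n * chi h n) := by
          refine Finset.sum_congr rfl fun h _ => ?_
          rw [H3.Fn_eq hC hU hfm hf1 hf0, tsum_mul_left]
      _ = ∑' n : ℕ, ∑ h ∈ clsD N D σ Y, chi h ν * (bet f n * chi h n) :=
          (Summable.tsum_finsetSum fun h _ =>
            (H3.summable_bet_chi hC hU hf1 hf0 h).mul_left _).symm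
      _ = _ := by
          refine tsum_congr fun n => ?_
          rw [Finset.mul_sum]
          refine Finset.sum_congr rfl fun h _ => ?_
          rcases Nat.eq_zero_or_pos n with rfl | hn
          · rw [hb0]; simp
          · rw [chi_mul h hν hn.ne']
            ring
  have hsr : Summable fun n : ℕ => bet f n * rhoN N D (ν * n) := by
    refine Summable.of_norm_bounded (H3.summable_bet hC hU hf1 hf0) fun n => ?_
    rw [norm_mul, Real.norm_eq_abs, Real.norm_eq_abs]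
    exact mul_le_of_le_one_right (abs_nonneg _) (rhoN_abs_le _ _ _)
  set E : ℕ → ℝ := fun n => ∑ h ∈ clsD N D σ Y, chi h (ν * n) - densD N D * Y * rhoN N D (ν * n)
    with hE
  -- the bound for one `n`
  have hone : ∀ n : ℕ, |bet f n * E n| ≤
      K * (6 * L * (ν : ℝ) ^ 3) * (dv n ^ 2 * Real.exp (-π * n * (U / 2))) := by
    intro n
    rcases Nat.eq_zero_or_pos n with rfl | hn
    · rw [hb0, zero_mul, abs_zero]
      have := hdvnn 0
      positivity
    have hn1 : (1 : ℝ) ≤ n := by exact_mod_cast hn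
    have h1 := pv_class N D hN h2 hσ Y (ν * n) (Nat.mul_ne_zero hν hn.ne')
    have h3 : √(((ν * n : ℕ)) : ℝ) = √(ν : ℝ) * √(n : ℝ) := by
      push_cast
      rw [Real.sqrt_mul (by linarith)]
    have h4 := dv_mul_le ν n
    have h5 : 1 + Real.log ((ν * n : ℕ) : ℝ) ≤ (1 + Real.log ν) * (1 + Real.log n) := by
      push_cast
      rw [Real.log_mul (by linarith) (by linarith)]
      nlinarith [Real.log_nonneg hν1, Real.log_nonneg hn1,
        mul_nonneg (Real.log_nonneg hν1) (Real.log_nonneg hn1)]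
    have hlν := Real.log_nonneg hν1
    have hln := Real.log_nonneg hn1
    have h6 : √(ν : ℝ) * (1 + Real.log ν) * dv ν ≤ (ν : ℝ) ^ 3 := by
      have a1 : √(ν : ℝ) ≤ ν := by
        rw [Real.sqrt_le_left (by linarith)]
        nlinarith
      have a2 : 1 + Real.log ν ≤ ν := by
        have := Real.log_le_sub_one_of_pos (show (0 : ℝ) < ν by linarith)
        linarith
      have a3 := dv_le ν
      have := hdvnn ν
      calc √(ν : ℝ) * (1 + Real.log ν) * dv ν ≤ ν * ν * ν := by gcongr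
        _ = _ := by ring
    have h7 := H3.abs_bet_le hC hU hf1 hf0 n
    have h8 := log_exp_le hL hU hUL hn
    have d1 := hdvnn ν
    have d2 := hdvnn n
    have d3 := hdvnn (ν * n)
    rw [abs_mul]
    calc |bet f n| * |E n| ≤ |bet f n| * (K * (√((ν * n : ℕ) : ℝ) *
          (1 + Real.log ((ν * n : ℕ) : ℝ)) * dv (ν * n))) := by gcongr
      _ ≤ |bet f n| * (K * ((√(ν : ℝ) * √(n : ℝ)) * ((1 + Real.log ν) * (1 + Real.log n)) *
          (dv ν * dv n))) := by
          rw [h3]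
          gcongr
      _ = K * (√(ν : ℝ) * (1 + Real.log ν) * dv ν) * ((1 + Real.log n) * dv n) *
          (√(n : ℝ) * |bet f n|) := by ring
      _ ≤ K * (ν : ℝ) ^ 3 * ((1 + Real.log n) * dv n) * (2 * (dv n * Real.exp (-π * n * U))) := by
          gcongr
      _ = K * (ν : ℝ) ^ 3 * 2 * dv n ^ 2 * ((1 + Real.log n) * Real.exp (-π * n * U)) := by ring
      _ ≤ K * (ν : ℝ) ^ 3 * 2 * dv n ^ 2 * (3 * L * Real.exp (-π * n * (U / 2))) := by gcongr
      _ = _ := by ring
  have hsd := summable_dv_pow 2 (show 0 < U / 2 by positivity)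
  have hsE : Summable fun n : ℕ => bet f n * E n :=
    Summable.of_norm_bounded (hsd.mul_left (K * (6 * L * (ν : ℝ) ^ 3))) hone
  have hsplit : ∑' n : ℕ, bet f n * ∑ h ∈ clsD N D σ Y, chi h (ν * n) -
      densD N D * Y * ∑' n : ℕ, bet f n * rhoN N D (ν * n) = ∑' n : ℕ, bet f n * E n := by
    rw [← tsum_mul_left, sub_eq_iff_eq_add, ← hsE.tsum_add (hsr.mul_left _)]
    refine tsum_congr fun n => ?_
    simp only [hE]
    ring
  rw [hex, hsplit]
  have hfin : |∑' n : ℕ, bet f n * E n| ≤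
      K * (6 * L * (ν : ℝ) ^ 3) * ∑' n : ℕ, dv (n + 1) ^ 2 *
        Real.exp (-π * ((n + 1 : ℕ) : ℝ) * (U / 2)) := by
    rw [hsE.tsum_eq_zero_add, hb0, zero_mul, zero_add, ← tsum_mul_left]
    have hs1 : Summable fun n : ℕ => K * (6 * L * (ν : ℝ) ^ 3) *
        (dv (n + 1) ^ 2 * Real.exp (-π * ((n + 1 : ℕ) : ℝ) * (U / 2))) :=
      ((summable_nat_add_iff 1).2 hsd).mul_left _
    have h9 : ‖∑' n : ℕ, bet f (n + 1) * E (n + 1)‖ ≤
        ∑' n : ℕ, K * (6 * L * (ν : ℝ) ^ 3) *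
          (dv (n + 1) ^ 2 * Real.exp (-π * ((n + 1 : ℕ) : ℝ) * (U / 2))) :=
      tsum_of_norm_bounded hs1.hasSum fun n => hone (n + 1)
    exact h9
  refine hfin.trans ?_
  have hθ : 0 < 1 / L := by positivity
  have hθ1 : 1 / L ≤ 1 := by rw [div_le_one (by linarith)]; exact hL
  have h5 := (hA (1 / L) (U / 2) hθ hθ1 (by positivity)).2
  have h6 : (U / 2) ^ (-1 - 1 / L) ≤ 4 * Real.exp 1 / U := by
    have e : -1 - 1 / L = -1 + -(1 / L) := by ring
    rw [e, Real.rpow_add (by positivity), Real.rpow_neg_one]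
    have h7 : (U / 2) ^ (-(1 / L)) ≤ 2 * Real.exp 1 := by
      rw [div_eq_mul_inv, Real.mul_rpow hU.le (by norm_num)]
      have h8 : U ^ (-(1 / L)) ≤ Real.exp 1 := by
        calc U ^ (-(1 / L)) ≤ (Real.exp (-L)) ^ (-(1 / L)) :=
              Real.rpow_le_rpow_of_nonpos (Real.exp_pos _) hUL (by linarith)
          _ = Real.exp 1 := by
              rw [← Real.exp_mul]
              congr 1
              field_simp
      have h9 : ((2 : ℝ)⁻¹) ^ (-(1 / L)) ≤ 2 := by
        rw [Real.inv_rpow (by norm_num), Real.rpow_neg (by norm_num), inv_inv]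
        calc (2 : ℝ) ^ (1 / L) ≤ (2 : ℝ) ^ (1 : ℝ) :=
              Real.rpow_le_rpow_of_exponent_le (by norm_num) hθ1
          _ = 2 := Real.rpow_one 2
      calc U ^ (-(1 / L)) * (2 : ℝ)⁻¹ ^ (-(1 / L)) ≤ Real.exp 1 * 2 := by gcongr
        _ = _ := by ring
    have e2 : 4 * Real.exp 1 / U = (U / 2)⁻¹ * (2 * Real.exp 1) := by
      field_simp
      ring
    rw [e2]
    exact mul_le_mul_of_nonneg_left h7 (by positivity)
  rw [one_div_one_div] at h5
  have h8 : ∑' n : ℕ, dv (n + 1) ^ 2 * Real.exp (-π * ((n + 1 : ℕ) : ℝ) * (U / 2)) ≤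
      C1 * L ^ A * (4 * Real.exp 1 / U) := h5.trans (by gcongr)
  calc K * (6 * L * (ν : ℝ) ^ 3) * ∑' n : ℕ, dv (n + 1) ^ 2 *
        Real.exp (-π * ((n + 1 : ℕ) : ℝ) * (U / 2))
      ≤ K * (6 * L * (ν : ℝ) ^ 3) * (C1 * L ^ A * (4 * Real.exp 1 / U)) := by gcongr
    _ = _ := by
        rw [pow_succ]
        ring

/-! ### the main window -/

omit [Crv] in
lemma ηf_nonneg (t : ℝ) : 0 ≤ ηf t := Real.smoothTransition.nonneg _

omit [Crv] in
lemma ηf_le_one (t : ℝ) : ηf t ≤ 1 := Real.smoothTransition.le_one _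

omit [Crv] in
lemma ηf_zero {t : ℝ} (ht : t ≤ 1) : ηf t = 0 :=
  Real.smoothTransition.zero_of_nonpos (by linarith)

omit [Crv] in
lemma ηf_one {t : ℝ} (ht : 2 ≤ t) : ηf t = 1 :=
  Real.smoothTransition.one_of_one_le (by linarith)

omit [Crv] in
lemma hmain_zero {ε : ℝ} (hε : 0 < ε) {Y : ℕ} (hY : 0 < Real.log Y) {x : ℝ}
    (hx : x ≤ ε * Real.log Y) : hmain ε Y x = 0 := by
  unfold hmain
  rw [ηf_zero (by rw [div_le_one (by positivity)]; exact hx)]
  ring

omit [Crv] in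
lemma hmain_abs_le {ε : ℝ} (hε : 0 < ε) {Y : ℕ} (hY : 0 < Real.log Y) (x : ℝ) :
    |hmain ε Y x| ≤ 3 := by
  by_cases h1 : x ≤ ε * Real.log Y
  · rw [hmain_zero hε hY h1]
    simp
  push Not at h1
  have hx0 : 0 < x := lt_trans (by positivity) h1
  by_cases h2 : 3 * Real.log Y ≤ x
  · have h3 : ηf (x / (3 / 2 * Real.log Y)) = 1 := by
      apply ηf_one
      rw [le_div_iff₀ (by positivity)]
      linarith
    unfold hmain
    rw [h3]
    simp
  · push Not at h2
    unfold hmain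
    have a1 := ηf_nonneg (x / (ε * Real.log Y))
    have a2 := ηf_le_one (x / (ε * Real.log Y))
    have a3 := ηf_nonneg (x / (3 / 2 * Real.log Y))
    have a4 := ηf_le_one (x / (3 / 2 * Real.log Y))
    have a5 : 0 ≤ x / Real.log Y := by positivity
    have a6 : x / Real.log Y ≤ 3 := by
      rw [div_le_iff₀ hY]
      exact h2.le
    rw [abs_of_nonneg (mul_nonneg a5 (mul_nonneg a1 (by linarith)))]
    calc x / Real.log Y * (ηf (x / (ε * Real.log Y)) * (1 - ηf (x / (3 / 2 * Real.log Y))))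
        ≤ 3 * (1 * 1) := by
          apply mul_le_mul a6 _ (mul_nonneg a1 (by linarith)) (by norm_num)
          apply mul_le_mul a2 (by linarith) (by linarith) (by norm_num)
      _ = 3 := by norm_num

omit [Crv] in
lemma hmain_measurable (ε : ℝ) (Y : ℕ) : Measurable (hmain ε Y) := by
  unfold hmain ηf
  have h := Real.smoothTransition.continuous
  apply Continuous.measurable
  fun_prop

/-- the cut window -/
noncomputable def fc (ε : ℝ) (Y : ℕ) (u : ℝ) : ℝ :=
  if 0 < u then (1 / 3 : ℝ) * cfY Y (hmain ε Y) u else 0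

lemma Fn_fc (ε : ℝ) (Y : ℕ) (h : ℤ) : Fw Y (hmain ε Y) h = 3 * Fn (fc ε Y) h := by
  unfold Fw Fn
  rw [← integral_const_mul]
  refine setIntegral_congr_fun measurableSet_Ioi fun u hu => ?_
  simp only [fc, if_pos (show 0 < u from hu)]
  ring

lemma bet_fc (ε : ℝ) (Y n : ℕ) : bet (cfY Y (hmain ε Y)) n = 3 * bet (fc ε Y) n := by
  unfold bet
  have h1 : ∫ u in Ioi (0 : ℝ), Real.exp (-π * n * u) * cfY Y (hmain ε Y) u =
      3 * ∫ u in Ioi (0 : ℝ), Real.exp (-π * n * u) * fc ε Y u := by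
    rw [← integral_const_mul]
    refine setIntegral_congr_fun measurableSet_Ioi fun u hu => ?_
    simp only [fc, if_pos (show 0 < u from hu)]
    ring
  rw [h1]
  ring

theorem swap (N D : ℕ) (hN : 1 < N) (h2 : 2 ∣ N) {σ : ℤ} (hσ : σ = 1 ∨ σ = -1) {ε κ : ℝ}
    (hε : 0 < ε) (hε1 : ε ≤ 1) (hκ : 0 < κ) :
    ∃ Y₀ : ℕ, ∀ Y : ℕ, Y₀ ≤ Y → ∀ (A : Finset ℕ) (m : ℕ → ℝ),
      (∀ a ∈ A, Good a ∧ (a : ℝ) ≤ Real.exp (ε * Real.log Y / 64)) →
      ∑ a ∈ A, |m a| ≤ Real.exp (ε * Real.log Y / 64) →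
      |∑ h ∈ clsD N D σ Y, (∑ a ∈ A, m a * chi h a) * Fw Y (hmain ε Y) h -
        densD N D * Y * ∑ a ∈ A, m a *
          ∑' n : ℕ, bet (cfY Y (hmain ε Y)) n * rhoN N D (a * n)| ≤ κ * Y := by
  obtain ⟨C, hC, B, hcl⟩ := tw1_class
  set δ : ℝ := ε / (4 * (B + 1)) with hδ
  have hδ0 : 0 < δ := by positivity
  set K : ℝ := 3 * (4 * 2 ^ (Pr N D).card) * C * (1 / δ) ^ B with hK
  have hK0 : 0 < K := by positivity
  refine ⟨⌈(K / κ) ^ (2 / ε)⌉₊ + 3, fun Y hY A m hA hm => ?_⟩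
  have hY3 : 3 ≤ Y := by omega
  have hYR : (3 : ℝ) ≤ Y := by exact_mod_cast hY3
  have hY0 : (0 : ℝ) < Y := by linarith
  set L : ℝ := Real.log Y with hL
  have hL1 : 1 ≤ L := by
    rw [hL, Real.le_log_iff_exp_le hY0]
    have := Real.exp_one_lt_d9
    linarith
  have hL0 : 0 < L := by linarith
  have hexpL : Real.exp L = Y := Real.exp_log hY0
  set U : ℝ := Real.exp ((ε - 1) * L) with hU
  have hU0 : 0 < U := Real.exp_pos _
  have hUL : Real.exp (-L) ≤ U := by
    rw [hU]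
    apply Real.exp_le_exp.2
    nlinarith
  have hU1 : U ≤ 1 := Real.exp_le_one_iff.2 (by nlinarith)
  have hfm : Measurable (fc ε Y) := by
    unfold fc
    refine Measurable.ite measurableSet_Ioi ?_ measurable_const
    refine Measurable.const_mul ?_ _
    unfold cfY
    exact (hmain_measurable ε Y).comp (Real.measurable_log.comp (measurable_id.mul_const _))
  have hf1 : ∀ u, |fc ε Y u| ≤ 1 := by
    intro u
    unfold fc
    split_ifs
    · rw [abs_mul]
      have h3 := hmain_abs_le hε hL0 (Real.log (u * Y))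
      have e1 : cfY Y (hmain ε Y) u = hmain ε Y (Real.log (u * Y)) := rfl
      rw [e1, abs_of_pos (show (0 : ℝ) < 1 / 3 by norm_num)]
      linarith
    · simp
  have hf0 : ∀ u, u < U → fc ε Y u = 0 := by
    intro u hu
    unfold fc
    split_ifs with h0
    · have e1 : cfY Y (hmain ε Y) u = hmain ε Y (Real.log (u * Y)) := rfl
      rw [e1, hmain_zero hε hL0, mul_zero]
      rw [Real.log_mul h0.ne' hY0.ne']
      have h3 : Real.log u ≤ (ε - 1) * L := by
        rw [← Real.log_exp ((ε - 1) * L)]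
        exact Real.log_le_log h0 hu.le
      have h4 : Real.log (Y : ℝ) = L := rfl
      rw [h4]
      linarith
    · rfl
  have hterm : ∀ a ∈ A, |∑ h ∈ clsD N D σ Y, chi h a * Fw Y (hmain ε Y) h -
      densD N D * Y * ∑' n : ℕ, bet (cfY Y (hmain ε Y)) n * rhoN N D (a * n)| ≤
      3 * (4 * 2 ^ (Pr N D).card) * C * L ^ B * Real.exp (3 * (ε * L / 64)) / U := by
    intro a ha
    obtain ⟨h3, h4⟩ := hA a ha
    have h5 := hcl N D hN h2 σ hσ L U Y a (fc ε Y) hL1 hUL hU1 h3.ne_zero hfm hf1 hf0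
    have e1 : ∑ h ∈ clsD N D σ Y, chi h a * Fw Y (hmain ε Y) h -
        densD N D * Y * ∑' n : ℕ, bet (cfY Y (hmain ε Y)) n * rhoN N D (a * n) =
        3 * (∑ h ∈ clsD N D σ Y, chi h a * Fn (fc ε Y) h -
          densD N D * Y * ∑' n : ℕ, bet (fc ε Y) n * rhoN N D (a * n)) := by
      have e2 : ∑ h ∈ clsD N D σ Y, chi h a * Fw Y (hmain ε Y) h =
          3 * ∑ h ∈ clsD N D σ Y, chi h a * Fn (fc ε Y) h := by
        rw [Finset.mul_sum]
        refine Finset.sum_congr rfl fun h _ => ?_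
        rw [Fn_fc]
        ring
      have e3 : ∑' n : ℕ, bet (cfY Y (hmain ε Y)) n * rhoN N D (a * n) =
          3 * ∑' n : ℕ, bet (fc ε Y) n * rhoN N D (a * n) := by
        rw [← tsum_mul_left]
        refine tsum_congr fun n => ?_
        rw [bet_fc]
        ring
      rw [e2, e3]
      ring
    rw [e1, abs_mul, abs_of_pos (show (0 : ℝ) < 3 by norm_num)]
    have h6 : (a : ℝ) ^ 3 ≤ Real.exp (3 * (ε * L / 64)) := by
      have e4 : Real.exp (3 * (ε * L / 64)) = Real.exp (ε * L / 64) ^ 3 := by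
        rw [← Real.exp_nat_mul]
        norm_num
      rw [e4]
      exact pow_le_pow_left₀ (Nat.cast_nonneg _) h4 3
    calc 3 * |∑ h ∈ clsD N D σ Y, chi h a * Fn (fc ε Y) h -
          densD N D * Y * ∑' n : ℕ, bet (fc ε Y) n * rhoN N D (a * n)|
        ≤ 3 * (4 * 2 ^ (Pr N D).card * (C * L ^ B * (a : ℝ) ^ 3 / U)) := by gcongr
      _ ≤ 3 * (4 * 2 ^ (Pr N D).card * (C * L ^ B * Real.exp (3 * (ε * L / 64)) / U)) := by
          gcongr
      _ = _ := by ring
  have hsum : ∑ h ∈ clsD N D σ Y, (∑ a ∈ A, m a * chi h a) * Fw Y (hmain ε Y) h -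
      densD N D * Y * ∑ a ∈ A, m a * ∑' n : ℕ, bet (cfY Y (hmain ε Y)) n * rhoN N D (a * n) =
      ∑ a ∈ A, m a * (∑ h ∈ clsD N D σ Y, chi h a * Fw Y (hmain ε Y) h -
        densD N D * Y * ∑' n : ℕ, bet (cfY Y (hmain ε Y)) n * rhoN N D (a * n)) := by
    have e1 : ∑ h ∈ clsD N D σ Y, (∑ a ∈ A, m a * chi h a) * Fw Y (hmain ε Y) h =
        ∑ a ∈ A, m a * ∑ h ∈ clsD N D σ Y, chi h a * Fw Y (hmain ε Y) h := by
      simp_rw [Finset.sum_mul, Finset.mul_sum]
      rw [Finset.sum_comm]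
      refine Finset.sum_congr rfl fun a _ => Finset.sum_congr rfl fun h _ => ?_
      ring
    rw [e1, Finset.mul_sum, ← Finset.sum_sub_distrib]
    refine Finset.sum_congr rfl fun a _ => ?_
    ring
  rw [hsum]
  have hlog : L ^ B ≤ (1 / δ) ^ B * Real.exp (ε * L / 4) := by
    have h3 : L ≤ (1 / δ) * Real.exp (δ * L) := by
      have h4 := Real.add_one_le_exp (δ * L)
      rw [one_div, inv_mul_eq_div, le_div_iff₀ hδ0]
      nlinarith
    calc L ^ B ≤ ((1 / δ) * Real.exp (δ * L)) ^ B := pow_le_pow_left₀ hL0.le h3 B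
      _ = (1 / δ) ^ B * Real.exp (B * (δ * L)) := by rw [mul_pow, ← Real.exp_nat_mul]
      _ ≤ (1 / δ) ^ B * Real.exp (ε * L / 4) := by
          gcongr
          have h5 : (B : ℝ) * δ ≤ ε / 4 := by
            rw [hδ, mul_div_assoc', div_le_div_iff₀ (by positivity) (by norm_num)]
            nlinarith [hε.le]
          nlinarith
  have hlast : K ≤ κ * Real.exp (ε * L / 2) := by
    have h3 : (K / κ) ^ (2 / ε) ≤ Y := by
      have h4 : ((⌈(K / κ) ^ (2 / ε)⌉₊ : ℕ) : ℝ) ≤ Y := by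
        exact_mod_cast (by omega : ⌈(K / κ) ^ (2 / ε)⌉₊ ≤ Y)
      exact (Nat.le_ceil _).trans h4
    have h5 : K / κ ≤ (Y : ℝ) ^ (ε / 2) := by
      have h6 := Real.rpow_le_rpow (by positivity) h3 (show 0 ≤ ε / 2 by positivity)
      rw [← Real.rpow_mul (by positivity)] at h6
      have h7 : 2 / ε * (ε / 2) = 1 := by field_simp
      rwa [h7, Real.rpow_one] at h6
    rw [div_le_iff₀ hκ] at h5
    have h8 : (Y : ℝ) ^ (ε / 2) = Real.exp (ε * L / 2) := by
      rw [Real.rpow_def_of_pos hY0]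
      congr 1
      ring
    rw [h8] at h5
    linarith
  calc |∑ a ∈ A, m a * (∑ h ∈ clsD N D σ Y, chi h a * Fw Y (hmain ε Y) h -
        densD N D * Y * ∑' n : ℕ, bet (cfY Y (hmain ε Y)) n * rhoN N D (a * n))|
      ≤ ∑ a ∈ A, |m a| * (3 * (4 * 2 ^ (Pr N D).card) * C * L ^ B *
          Real.exp (3 * (ε * L / 64)) / U) := by
        refine (Finset.abs_sum_le_sum_abs _ _).trans (Finset.sum_le_sum fun a ha => ?_)
        rw [abs_mul]
        exact mul_le_mul_of_nonneg_left (hterm a ha) (abs_nonneg _)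
    _ = (∑ a ∈ A, |m a|) * (3 * (4 * 2 ^ (Pr N D).card) * C * L ^ B *
          Real.exp (3 * (ε * L / 64)) / U) := by rw [Finset.sum_mul]
    _ ≤ Real.exp (ε * L / 64) * (3 * (4 * 2 ^ (Pr N D).card) * C *
          ((1 / δ) ^ B * Real.exp (ε * L / 4)) * Real.exp (3 * (ε * L / 64)) / U) := by
        gcongr
    _ = K * (Real.exp (ε * L / 64) * Real.exp (ε * L / 4) * Real.exp (3 * (ε * L / 64)) *
          Real.exp (-((ε - 1) * L))) := by
        rw [hK, hU, Real.exp_neg]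
        field_simp
    _ = K * Real.exp ((1 - 11 / 16 * ε) * L) := by
        rw [← Real.exp_add, ← Real.exp_add, ← Real.exp_add]
        congr 2
        ring
    _ ≤ K * Real.exp (L - ε * L / 2) := by
        gcongr
        nlinarith
    _ ≤ κ * Real.exp (ε * L / 2) * Real.exp (L - ε * L / 2) := by gcongr
    _ = κ * Y := by
        rw [mul_assoc, ← Real.exp_add, ← hexpL]
        congr 2
        ring

end P004E.H147
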